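import Vale.Agent.P030.AR.Vec
import Vale.Agent.P030.H462.SolSer

/-!
# P030: all series of `AR/Vec.lean` have polynomial growth

`pg_tup0`, `pg_tup1`, `pg_zL0` .. `pg_xO0`, `pg_serR`; holomorphy of `evq`, `evt`, `tupC` on the
unit disc and of the germs `gl0 .. gl3` (in `T` and `t`).
-/

open PowerSeries

namespace Vale.Agent.P030.H787

open Vale.Agent.P030.T Vale.Agent.P030.H462 Vale.Agent.P030.AR

/-- polynomial growth in the form of `AR/Vec.lean` -/
abbrev PR (f : ℚ⟦X⟧) : Prop := PG (Rat.castHom ℂ) f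

theorem castHom_eq : Rat.castHom ℂ = algebraMap ℚ ℂ := rfl

theorem evq_eq (f : ℚ⟦X⟧) (t : ℂ) : evq f t = evQ f t := rfl

theorem pr {f : ℚ⟦X⟧} (h : PQ f) : PR f := h

theorem pq {f : ℚ⟦X⟧} (h : PR f) : PQ f := h

theorem pr_sc {f : ℚ⟦X⟧} (hf : PR f) (q : ℚ) : PR (sc q f) := pq_sc hf q
theorem pr_th {f : ℚ⟦X⟧} (hf : PR f) : PR (th f) := pq_th hf
theorem pr_dd {f : ℚ⟦X⟧} (hf : PR f) : PR (dd f) := pq_dd hf
theorem pr_tw {f : ℚ⟦X⟧} (hf : PR f) : PR (tw f) := pq_tw hf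
theorem pr_integ {f : ℚ⟦X⟧} (hf : PR f) : PR (integ f) := pq_integ hf

theorem pg_li2m : PR li2m := pq_of_le_one fun n => by
  simp only [li2m, coeff_mk]
  split_ifs with h
  · simp
  · rw [abs_div, abs_pow, abs_neg, abs_one, one_pow, abs_of_nonneg (by positivity), one_div,
      ← inv_pow, ← one_div]
    exact pow_le_one₀ (by positivity) (one_div_le_one' h)

/-! ### the series `R` -/

theorem coeff_serRr (n : ℕ) : coeff (n + 2) serRr = - 2 * coeff (n + 2) serK + 2 * coeff n serK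
    - 4 * (((n : ℚ) + 2) * coeff (n + 2) serM) + 4 * ((n : ℚ) * coeff n serM + coeff n serM) := by
  have h1 : ¬ (n + 2 = 0) := by omega
  simp only [serRr, sc, map_add, map_sub, H605.coeff_C_mul', H605.coeff_X_sq_mul, H605.coeff_th]
  rw [coeff_C, if_neg h1]
  push_cast
  ring

theorem coeff_one_serRr : coeff 1 serRr = 0 := by
  have h1 : coeff 1 serM = 0 := by rw [serM, coeff_mk, H605.serK_one, zero_mul]
  simp only [serRr, sc, map_add, map_sub, H605.coeff_C_mul', H605.coeff_X_sq_mul_one,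
    H605.coeff_th, H605.serK_one, h1]
  rw [coeff_C]
  simp

theorem cR_eq : ∀ n : ℕ, AR.cR n = H462.cR n
  | 0 => by simp [AR.cR, H462.cR, cRf]
  | 1 => by
    rw [AR.cR, coeff_one_serRr]
    simp [H462.cR, cRf]
  | n + 2 => by
    have e : H462.cR (n + 2) = (((n : ℚ) + 1) ^ 2 * H462.cR n - 2 * coeff (n + 2) serK
        + 2 * coeff n serK - 4 * ((n : ℚ) + 2) * coeff (n + 2) serM
        + 4 * ((n : ℚ) + 1) * coeff n serM) / ((n : ℚ) + 2) ^ 2 := by
      simp only [H462.cR, cRf]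
    rw [AR.cR, e, coeff_serRr, cR_eq n]
    ring

theorem serR_eq : AR.serR = H462.serR := by
  ext n
  rw [AR.serR, H462.serR, coeff_mk, coeff_mk, cR_eq]

theorem pg_serR : PR AR.serR := by
  rw [serR_eq]; exact pq_serR

/-! ### the tuples -/

theorem pg_one' : PR (1 : ℚ⟦X⟧) := PG.one
theorem pg_lgm : PR lgm := pq_lgm
theorem pg_lgp : PR lgp := pq_lgp
theorem pg_li2 : PR li2 := pq_li2
theorem pg_serK : PR serK := pq_serK
theorem pg_serM : PR serM := pq_serM
theorem pg_serB : PR serB := pq_serB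
theorem pg_serB2 : PR serB2 := pq_serB2
theorem pg_geo : PR geo := pq_geo
theorem pg_geoa : PR geoa := pq_geoa
theorem pg_geo2 : PR geo2 := pq_geo2

theorem all8 {a0 a1 a2 a3 a4 a5 a6 a7 : ℚ⟦X⟧} (h0 : PR a0) (h1 : PR a1) (h2 : PR a2) (h3 : PR a3)
    (h4 : PR a4) (h5 : PR a5) (h6 : PR a6) (h7 : PR a7) (j : Fin 8) :
    PR ((![a0, a1, a2, a3, a4, a5, a6, a7] : Fin 8 → ℚ⟦X⟧) j) := by
  fin_cases j
  · exact h0
  · exact h1
  · exact h2
  · exact h3
  · exact h4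
  · exact h5
  · exact h6
  · exact h7

theorem pg_tup0 (g : Gp) (j : Fin 8) : PR (tup0 g j) := by
  cases g
  case z1 =>
    exact
      (all8 PG.one PG.zero pg_lgm pg_li2 (pr_integ (PG.mul pg_geoa pg_lgm))
        (pr_sc (PG.pow pg_lgm 2) _) (PG.mul (PG.sub PG.one PG.varX) pg_serB)
        (PG.mul (PG.sub PG.one PG.varX) (pr_th pg_serB)) j)
  case zl =>
    exact
      (all8 PG.zero PG.one PG.zero PG.zero (PG.add (pr_sc pg_lgm _) pg_lgp) (pr_sc pg_lgm _)
        PG.zero PG.zero j)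
  case z8 =>
    exact
      (all8 PG.zero PG.zero PG.zero PG.zero PG.zero PG.zero
        (PG.mul (PG.sub PG.one PG.varX) pg_serK)
        (PG.mul (PG.sub PG.one PG.varX) (pr_th pg_serK)) j)
  case zab =>
    exact
      (all8 PG.zero PG.zero PG.zero PG.one PG.zero PG.zero PG.zero PG.zero j)
  case w1 =>
    exact
      (all8 PG.one PG.zero (PG.neg pg_lgm) (PG.neg (pr_sc (pr_integ (PG.mul pg_geo2 pg_lgm)) _))
        (PG.sub (PG.neg pg_li2) (pr_sc (PG.pow pg_lgm 2) _)) (pr_sc (PG.pow pg_lgm 2) _)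
        pg_serB2 (pr_tw pg_serB2) j)
  case wl =>
    exact
      (all8 PG.zero PG.one (PG.neg PG.one) (PG.neg (PG.add pg_lgp pg_lgm))
        (PG.neg (pr_sc pg_lgm _)) (pr_sc pg_lgm _) PG.zero PG.zero j)
  case wy =>
    exact
      (all8 PG.zero PG.zero PG.zero (PG.neg (PG.const _)) (PG.neg (PG.const _)) PG.zero
        (PG.neg pg_serK) (PG.neg (pr_tw pg_serK)) j)
  case w8 =>
    exact
      (all8 PG.zero PG.zero PG.zero PG.zero PG.zero PG.zero pg_serK (pr_tw pg_serK) j)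
  case wab =>
    exact
      (all8 PG.zero PG.zero PG.zero PG.one PG.zero PG.zero PG.zero PG.zero j)
  case wf7 =>
    exact
      (all8 PG.zero PG.zero PG.zero PG.zero PG.zero PG.one PG.zero PG.zero j)
  case v2 =>
    exact
      (all8 PG.zero PG.zero PG.zero (PG.neg PG.one) (PG.neg PG.one) PG.one PG.zero PG.zero j)
  case vl =>
    exact
      (all8 PG.zero PG.zero PG.zero PG.zero (PG.neg PG.one) PG.one PG.zero PG.zero j)
  case v8 =>
    exact
      (all8 PG.zero PG.zero PG.zero PG.zero PG.zero PG.zero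
        (PG.neg (PG.mul (PG.sub PG.one PG.varX) pg_serK))
        (PG.mul (PG.sub PG.one PG.varX) (pr_dd (PG.mul PG.varX pg_serK))) j)
  case vb =>
    exact
      (all8 PG.zero PG.zero PG.one PG.zero pg_lgp pg_lgm PG.zero PG.zero j)
  case x2 =>
    exact
      (all8 PG.zero PG.zero PG.zero PG.zero PG.zero (PG.const _)
        (pr_sc (PG.mul PG.varX pg_serK) _) (pr_sc (PG.mul PG.varX (pr_tw pg_serK)) _) j)
  case xl =>
    exact
      (all8 PG.zero PG.zero PG.zero PG.zero (PG.neg PG.one) PG.one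
        (PG.neg (PG.mul PG.varX pg_serK)) (PG.neg (PG.mul PG.varX (pr_tw pg_serK))) j)
  case x1 =>
    exact
      (all8 PG.zero PG.zero (PG.neg PG.one) (PG.neg (PG.add pg_lgp pg_lgm)) (PG.neg pg_lgm)
        pg_lgm (pr_sc (PG.mul PG.varX pg_serM) _)
        (pr_sc (PG.add (PG.mul PG.varX (pr_tw pg_serM))
          (pr_sc (PG.mul (PG.sub PG.one (PG.pow PG.varX 2)) pg_serK) _)) _) j)

theorem pg_tup1 (g : Gp) (j : Fin 8) : PR (tup1 g j) := by
  cases g
  case z1 =>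
    exact
      (all8 PG.zero PG.zero PG.zero PG.zero PG.zero PG.zero
        (PG.neg (PG.mul (PG.sub PG.one PG.varX) pg_serK))
        (PG.neg (PG.mul (PG.sub PG.one PG.varX) (pr_th pg_serK))) j)
  all_goals exact PG.zero

/-! ### the partners -/

theorem pg_zL0 (j : Fin 8) : PR (zL0 j) :=
  (all8 PG.zero PG.zero PG.one PG.zero pg_lgp pg_lgm PG.zero PG.zero j)

theorem pg_zM0 (j : Fin 8) : PR (zM0 j) :=
  (all8 PG.zero PG.zero PG.zero PG.zero PG.zero PG.zero (PG.mul (PG.sub PG.one PG.varX) pg_serM)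
    (PG.mul (PG.sub PG.one PG.varX) (PG.add (pr_th pg_serM) pg_serK)) j)

theorem pg_wL0 (j : Fin 8) : PR (wL0 j) :=
  (all8 PG.zero PG.zero PG.one (PG.add pg_lgp pg_lgm) pg_lgm (PG.neg pg_lgm) PG.zero PG.zero j)

theorem pg_wM0 (j : Fin 8) : PR (wM0 j) :=
  (all8 PG.zero PG.zero PG.zero PG.zero PG.zero PG.zero pg_serM (pr_tw pg_serM) j)

theorem pg_vE0 (j : Fin 8) : PR (vE0 j) :=
  (all8 PG.zero PG.one PG.zero PG.zero (PG.add (pr_sc pg_lgm _) pg_lgp) (pr_sc pg_lgm _) PG.zero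
    PG.zero j)

theorem pg_vM0 (j : Fin 8) : PR (vM0 j) :=
  (all8 PG.zero PG.zero PG.zero PG.zero PG.zero PG.zero
    (PG.neg (PG.mul (PG.sub PG.one PG.varX) pg_serM))
    (PG.mul (PG.sub PG.one PG.varX) (PG.add (pr_dd (PG.mul PG.varX pg_serM)) pg_serK)) j)

theorem pg_vO0 (j : Fin 8) : PR (vO0 j) :=
  (all8 PG.one PG.zero pg_lgm (PG.neg pg_li2)
    (PG.add (PG.sub pg_li2m pg_li2) (pr_integ (PG.mul pg_geoa pg_lgm)))
    (pr_sc (PG.pow pg_lgm 2) _) (PG.neg (PG.mul (PG.sub PG.one PG.varX) pg_serB))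
    (PG.mul (PG.sub PG.one PG.varX) (pr_dd (PG.mul PG.varX pg_serB))) j)

theorem pg_xE0 (j : Fin 8) : PR (xE0 j) :=
  (all8 PG.zero PG.one PG.zero PG.zero (pr_sc pg_lgm _) (PG.neg (pr_sc pg_lgm _)) PG.zero
    PG.zero j)

theorem pg_xM0 (j : Fin 8) : PR (xM0 j) :=
  (all8 PG.zero PG.zero PG.zero PG.zero PG.zero PG.zero (PG.neg (PG.mul PG.varX pg_serM))
    (PG.neg (PG.add (PG.mul PG.varX (pr_tw pg_serM)) (pr_sc (PG.mul (PG.sub PG.one (PG.pow PG.varX 2)) pg_serK) _))) j)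

theorem pg_xO0 (j : Fin 8) : PR (xO0 j) :=
  (all8 PG.one PG.zero (PG.neg pg_lgm)
    (PG.sub (PG.sub pg_li2 pg_li2m) (pr_sc (pr_integ (PG.mul pg_geo2 pg_lgm)) _))
    (PG.sub pg_li2 (pr_sc (PG.pow pg_lgm 2) _)) (pr_sc (PG.pow pg_lgm 2) _)
    (pr_sc (PG.mul PG.varX pg_serR) _)
    (pr_sc (PG.add (PG.mul PG.varX (pr_tw pg_serR)) (PG.mul (PG.sub PG.one (PG.pow PG.varX 2)) pg_serM)) _) j)

/-! ### holomorphy and reality -/

theorem hd_evq {f : ℚ⟦X⟧} (hf : PR f) {t : ℂ} (ht : ‖t‖ < 1) :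
    HasDerivAt (evq f) (evq (dd f) t) t := by
  have h := hasDerivAt_ev hf ht
  rw [← H605.dd_eq] at h
  exact h

theorem diff_evq {f : ℚ⟦X⟧} (hf : PR f) : DifferentiableOn ℂ (evq f) (Metric.ball 0 1) :=
  differentiableOn_ev hf

theorem diff_evt {f : Fin 8 → ℚ⟦X⟧} (hf : ∀ j, PR (f j)) (j : Fin 8) :
    DifferentiableOn ℂ (fun t => evt f t j) (Metric.ball 0 1) := diff_evq (hf j)

theorem diff_tupC (g : Gp) (j : Fin 8) :
    DifferentiableOn ℂ (fun t => tupC g t j) (Metric.ball 0 1) :=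
  (diff_evq (pg_tup0 g j)).add ((diff_evq (pg_tup1 g j)).const_mul xc)

theorem conj_evq (f : ℚ⟦X⟧) (t : ℂ) :
    evq f ((starRingEnd ℂ) t) = (starRingEnd ℂ) (evq f t) := by
  unfold evq ev
  rw [Complex.conj_tsum]
  refine tsum_congr fun n => ?_
  rw [map_mul, map_pow]
  simp

theorem conj_evt (f : Fin 8 → ℚ⟦X⟧) (t : ℂ) (j : Fin 8) :
    evt f ((starRingEnd ℂ) t) j = (starRingEnd ℂ) (evt f t j) := conj_evq _ _

theorem conj_xc : (starRingEnd ℂ) xc = xc := Complex.conj_ofReal _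
theorem conj_l2 : (starRingEnd ℂ) l2 = l2 := Complex.conj_ofReal _
theorem conj_pc : (starRingEnd ℂ) pc = pc := Complex.conj_ofReal _

theorem conj_tupC (g : Gp) (t : ℂ) (j : Fin 8) :
    tupC g ((starRingEnd ℂ) t) j = (starRingEnd ℂ) (tupC g t j) := by
  simp only [tupC, conj_evq, map_add, map_mul, conj_xc]

/-! ### the germs as holomorphic functions -/

section germs

variable {S : Set ℂ} {T t : ℂ → ℂ}

theorem dg_tup (ht : DifferentiableOn ℂ t S) (hS : ∀ u ∈ S, ‖t u‖ < 1) (g : Gp) (j : Fin 8) :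
    DifferentiableOn ℂ (fun u => tupC g (t u) j) S :=
  (diff_tupC g j).comp ht fun u hu => mem_ball_zero_iff.2 (hS u hu)

theorem dg_evt (ht : DifferentiableOn ℂ t S) (hS : ∀ u ∈ S, ‖t u‖ < 1) {f : Fin 8 → ℚ⟦X⟧}
    (hf : ∀ j, PR (f j)) (j : Fin 8) : DifferentiableOn ℂ (fun u => evt f (t u) j) S :=
  (diff_evt hf j).comp ht fun u hu => mem_ball_zero_iff.2 (hS u hu)

theorem dg_evq (ht : DifferentiableOn ℂ t S) (hS : ∀ u ∈ S, ‖t u‖ < 1) {f : ℚ⟦X⟧}
    (hf : PR f) : DifferentiableOn ℂ (fun u => evq f (t u)) S :=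
  (diff_evq hf).comp ht fun u hu => mem_ball_zero_iff.2 (hS u hu)

theorem dg_const (v : Fin 8 → ℂ) (j : Fin 8) : DifferentiableOn ℂ (fun _ : ℂ => v j) S :=
  differentiableOn_const _

theorem diff_gl0 (hT : DifferentiableOn ℂ T S) (ht : DifferentiableOn ℂ t S)
    (hS : ∀ u ∈ S, ‖t u‖ < 1) (i j : Fin 8) :
    DifferentiableOn ℂ (fun u => gl0 (T u) (t u) i j) S := by
  have h := fun g => dg_tup ht hS g j
  fin_cases i
  · exact (h .z1).add ((h .zl).const_mul l2)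
  · exact h .zl
  · exact (dg_evt ht hS pg_zL0 j).add (hT.mul (dg_const dv j))
  · exact dg_const dv j
  · exact dg_const gv j
  · exact dg_const hv j
  · exact (h .z8).const_mul (pc / 2)
  · exact (((differentiableOn_const (2 * l2)).sub hT).mul (h .z8)).sub (dg_evt ht hS pg_zM0 j)

theorem diff_wMv (hT : DifferentiableOn ℂ T S) (ht : DifferentiableOn ℂ t S)
    (hS : ∀ u ∈ S, ‖t u‖ < 1) (h0 : ∀ u ∈ S, t u ≠ 0) (j : Fin 8) :
    DifferentiableOn ℂ (fun u => wMv (T u) (t u) j) S := by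
  have hK := dg_evq ht hS (f := serK) pg_serK
  have h1 : DifferentiableOn ℂ (fun u => (1 - t u ^ 2) / (2 * t u) * evq serK (t u)) S := by
    refine DifferentiableOn.mul (DifferentiableOn.div ?_ ?_ ?_) hK
    · exact (differentiableOn_const (1 : ℂ)).sub (ht.pow 2)
    · exact ht.const_mul 2
    · intro u hu
      exact mul_ne_zero two_ne_zero (h0 u hu)
  exact ((dg_evt ht hS pg_wM0 j).add (hT.mul (dg_tup ht hS .w8 j))).add
    (h1.mul (dg_const (Pi.single 7 1) j))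

theorem diff_wLv (hT : DifferentiableOn ℂ T S) (ht : DifferentiableOn ℂ t S)
    (hS : ∀ u ∈ S, ‖t u‖ < 1) (j : Fin 8) :
    DifferentiableOn ℂ (fun u => wLv (T u) (t u) j) S :=
  (dg_evt ht hS pg_wL0 j).add (hT.mul (dg_const gv j))

theorem diff_gl1 (hT : DifferentiableOn ℂ T S) (ht : DifferentiableOn ℂ t S)
    (hS : ∀ u ∈ S, ‖t u‖ < 1) (h0 : ∀ u ∈ S, t u ≠ 0) (i j : Fin 8) :
    DifferentiableOn ℂ (fun u => gl1 (T u) (t u) i j) S := by
  have h := fun g => dg_tup ht hS g j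
  have hM := diff_wMv hT ht hS h0 j
  have hL := diff_wLv hT ht hS j
  fin_cases i
  · exact ((h .w1).add ((h .wl).const_mul l2)).add ((h .wy).const_mul (pc ^ 2 / 16))
  · exact ((h .wl).add hL).add (dg_const ((l2 / 2) • (gv - hv)) j)
  · exact (hL.add (dg_const ((Complex.I * pc) • dv) j)).add (dg_const (l2 • (gv - hv)) j)
  · exact dg_const dv j
  · exact dg_const gv j
  · exact dg_const hv j
  · exact ((h .w8).const_mul (2 * l2)).sub hM
  · exact ((h .w8).const_mul pc).sub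
      ((((h .w8).const_mul (2 * l2)).sub hM).const_mul (2 * Complex.I))

theorem diff_vEv (hT : DifferentiableOn ℂ T S) (ht : DifferentiableOn ℂ t S)
    (hS : ∀ u ∈ S, ‖t u‖ < 1) (j : Fin 8) :
    DifferentiableOn ℂ (fun u => vEv (T u) (t u) j) S :=
  (dg_evt ht hS pg_vE0 j).add ((hT.div_const 2).mul (dg_const (hv - gv) j))

theorem diff_A1v (hT : DifferentiableOn ℂ T S) (ht : DifferentiableOn ℂ t S)
    (hS : ∀ u ∈ S, ‖t u‖ < 1) (j : Fin 8) :
    DifferentiableOn ℂ (fun u => A1v (T u) (t u) j) S :=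
  ((dg_evt ht hS pg_vM0 j).add (hT.mul (dg_tup ht hS .v8 j))).sub
    ((dg_tup ht hS .v8 j).const_mul (2 * l2))

theorem diff_gl2 (hT : DifferentiableOn ℂ T S) (ht : DifferentiableOn ℂ t S)
    (hS : ∀ u ∈ S, ‖t u‖ < 1) (i j : Fin 8) :
    DifferentiableOn ℂ (fun u => gl2 (T u) (t u) i j) S := by
  have h := fun g => dg_tup ht hS g j
  have hE := diff_vEv hT ht hS j
  have h1 := diff_A1v hT ht hS j
  have h2 : DifferentiableOn ℂ (fun u => A2v (t u) j) S := (h .v8).const_mul (pc / 2)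
  fin_cases i
  · exact (((((((dg_evt ht hS pg_vO0 j).add (hT.mul (h .vb))).add
      (((hT.pow 2).div_const 2).mul (h .v2))).add (hE.const_mul l2)).sub
      (dg_const ((pc ^ 2 / 6) • dv) j)).sub (dg_const ((pc ^ 2 / 4) • gv) j)).sub
      (h1.const_mul (pc / 8))).sub ((h .v8).const_mul xc)
  · exact hE.add (dg_const ((Complex.I * pc) • gv) j)
  · exact ((h .vb).add (hT.mul (h .v2))).add (dg_const ((Complex.I * pc) • (dv + gv)) j)
  · exact dg_const dv j
  · exact dg_const gv j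
  · exact dg_const hv j
  · exact h2.add (((h2.const_mul (2 * Complex.I)).sub h1).const_mul Complex.I)
  · exact (h2.const_mul (2 * Complex.I)).sub h1

theorem diff_k3v (ht : DifferentiableOn ℂ t S) (hS : ∀ u ∈ S, ‖t u‖ < 1) (j : Fin 8) :
    DifferentiableOn ℂ (fun u => k3v (t u) j) S :=
  ((dg_tup ht hS .xl j).add (dg_const gv j)).sub (dg_const hv j)

theorem diff_xMv (hT : DifferentiableOn ℂ T S) (ht : DifferentiableOn ℂ t S)
    (hS : ∀ u ∈ S, ‖t u‖ < 1) (j : Fin 8) :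
    DifferentiableOn ℂ (fun u => xMv (T u) (t u) j) S :=
  (dg_evt ht hS pg_xM0 j).add (hT.mul (diff_k3v ht hS j))

theorem diff_x1v (hT : DifferentiableOn ℂ T S) (ht : DifferentiableOn ℂ t S)
    (hS : ∀ u ∈ S, ‖t u‖ < 1) (j : Fin 8) :
    DifferentiableOn ℂ (fun u => x1v (T u) (t u) j) S :=
  (dg_tup ht hS .x1 j).add ((hT.const_mul 2).mul (dg_tup ht hS .x2 j))

theorem diff_xEv (hT : DifferentiableOn ℂ T S) (ht : DifferentiableOn ℂ t S)
    (hS : ∀ u ∈ S, ‖t u‖ < 1) (j : Fin 8) :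
    DifferentiableOn ℂ (fun u => xEv (T u) (t u) j) S :=
  (dg_evt ht hS pg_xE0 j).sub ((hT.div_const 2).mul (dg_const (gv + hv) j))

theorem diff_gl3 (hT : DifferentiableOn ℂ T S) (ht : DifferentiableOn ℂ t S)
    (hS : ∀ u ∈ S, ‖t u‖ < 1) (i j : Fin 8) :
    DifferentiableOn ℂ (fun u => gl3 (T u) (t u) i j) S := by
  have h := fun g => dg_tup ht hS g j
  have hE := diff_xEv hT ht hS j
  have h1 := diff_x1v hT ht hS j
  have hM := diff_xMv hT ht hS j
  have hk := diff_k3v ht hS j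
  fin_cases i
  · exact ((((((((dg_evt ht hS pg_xO0 j).add (hT.mul (h .x1))).add ((hT.pow 2).mul (h .x2))).add
      (hE.const_mul l2)).add (h1.const_mul l2)).add (hM.const_mul (3 * l2 / 4))).sub
      (hk.const_mul (l2 ^ 2 / 2 + pc ^ 2 / 48))).add (dg_const ((pc ^ 2 / 6) • dv) j)).add
      (dg_const ((pc ^ 2 / 12) • gv) j)
  · exact hE.add (dg_const ((l2 / 2) • (gv - hv)) j)
  · exact (h1.neg.add (dg_const (l2 • (gv - hv)) j)).sub (hM.const_mul (1 / 4))
  · exact dg_const dv j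
  · exact dg_const gv j
  · exact dg_const hv j
  · exact (hk.const_mul (2 * l2)).sub hM
  · exact hk.const_mul pc

end germs

end Vale.Agent.P030.H787
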